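import Crest.Agent.R254.Slope

/-!
# R254: the conflict between row sheets and column sheets
-/

set_option autoImplicit false

namespace Crest.Agent.R254

open Finset

variable {E : Type*} [NormedAddCommGroup E] [InnerProductSpace ℝ E] [CompleteSpace E]

/-- Among `N` vectors of norm at most `4 D` two are `1 / (4 D)`-close. -/
def Pig (E : Type*) [NormedAddCommGroup E] (D : ℝ) (N : ℕ) : Prop :=
  ∀ x : ℕ → E, (∀ b < N, ‖x b‖ ≤ 4 * D) → ∃ b < N, ∃ b' < N, b ≠ b' ∧ ‖x b - x b'‖ ≤ 1 / (4 * D)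

theorem exists_pig (E : Type*) [NormedAddCommGroup E] [NormedSpace ℝ E] [FiniteDimensional ℝ E]
    {D : ℝ} (hD : 0 < D) : ∃ N₀ : ℕ, ∀ N, N₀ ≤ N → Pig E D N := by
  have hc : IsCompact (Metric.closedBall (0 : E) (4 * D)) := isCompact_closedBall _ _
  obtain ⟨t, ht, hcov⟩ := Metric.totallyBounded_iff.1 hc.totallyBounded (1 / (8 * D))
    (by positivity)
  refine ⟨ht.toFinset.card + 1, fun N hN x hx => ?_⟩
  have : ∀ b, ∃ y, b < N → y ∈ t ∧ dist (x b) y < 1 / (8 * D) := by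
    intro b
    by_cases hb : b < N
    · have := hcov (mem_closedBall_zero_iff.2 (hx b hb))
      simp only [Set.mem_iUnion, Metric.mem_ball] at this
      obtain ⟨y, h1, h2⟩ := this
      exact ⟨y, fun _ => ⟨h1, h2⟩⟩
    · exact ⟨0, fun h => absurd h hb⟩
  choose y hy using this
  obtain ⟨b, hb, b', hb', hne, he⟩ := exists_ne_map_eq_of_card_lt_of_maps_to
    (s := range N) (t := ht.toFinset) (f := y) (by simp; omega)
    fun b hb => by simpa using (hy b (by simpa using hb)).1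
  rw [mem_range] at hb hb'
  refine ⟨b, hb, b', hb', hne, ?_⟩
  have h1 := (hy b hb).2
  have h2 := (hy b' hb').2
  rw [he] at h1
  rw [← dist_eq_norm]
  have h3 := dist_triangle_right (x b) (x b') (y b')
  have h4 : 1 / (4 * D) = 1 / (8 * D) + 1 / (8 * D) := by field_simp; norm_num
  linarith

theorem block {D ρ : ℝ} {N W : ℕ} {g : ℝ → ℝ → E} {ga : ℕ → ℝ → ℝ → E} (hD : 0 < D)
    (hρ : 0 < ρ) (hN : 32 * D ^ 2 ≤ N) (hpig : Pig E D N) (hg : Lip D g) (hga : ∀ a, Lip D (ga a))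
    (hM : ∀ a s t, ‖ga a s t - g s t‖ ≤ 4 * D * N * ρ) (A A' : ℕ)
    (hsep : ∀ i < N * N, ∀ j < N * (W * N),
      (A' * (N * (W * N)) + j) / (W * N) % N ≠ (A * (N * N) + i) / N % N →
      N * ρ ≤ D * ‖ga ((A' * (N * (W * N)) + j) / (W * N) % N)
          ((A * (N * N) + i : ℕ) * ρ) ((A' * (N * (W * N)) + j : ℕ) * ρ) -
        ga ((A * (N * N) + i) / N % N)
          ((A * (N * N) + i : ℕ) * ρ) ((A' * (N * (W * N)) + j : ℕ) * ρ)‖) :
    (W * N) * (N / (4 * D)) ≤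
      ∑ j ∈ range (N * (W * N)), ∑ i ∈ range (N * N),
        ‖sl (ga ((A' * (N * (W * N)) + j) / (W * N) % N)) ρ (A * (N * N) + i)
            (A' * (N * (W * N)) + j) - sl g ρ (A * (N * N) + i) (A' * (N * (W * N)) + j)‖ +
      (W * N) * ∑ i ∈ range (N * N), ∑ j ∈ range (N * (W * N)),
        ‖sl (sw (ga ((A * (N * N) + i) / N % N))) ρ (A' * (N * (W * N)) + j) (A * (N * N) + i) -
          sl (sw g) ρ (A' * (N * (W * N)) + j) (A * (N * N) + i)‖ := by
  set I₀ := A * (N * N) with hI₀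
  set J₀ := A' * (N * (W * N)) with hJ₀
  have hN0 : (0 : ℝ) < N := lt_of_lt_of_le (by positivity) hN
  have hN0' : 0 < N := by exact_mod_cast hN0
  have hcV : ∀ c < N, (I₀ + c * N) / N % N = c := by
    intro c hc
    rw [hI₀, ← mul_assoc, ← add_mul, Nat.mul_div_cancel _ hN0', Nat.mul_add_mod_of_lt hc]
  have hlt : ∀ c < N, c * N < N * N := fun c hc => Nat.mul_lt_mul_of_pos_right hc hN0'
  set V := ∑ i ∈ range (N * N), ∑ j ∈ range (N * (W * N)),
    ‖sl (sw (ga ((I₀ + i) / N % N))) ρ (J₀ + j) (I₀ + i) - sl (sw g) ρ (J₀ + j) (I₀ + i)‖ with hV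
  let ν : ℕ → ℕ → E := fun c J => ed (sw (ga c)) ρ J (I₀ + c * N) - ed (sw g) ρ J (I₀ + c * N)
  have hνV : ∀ c < N, ∀ j ≤ N * (W * N), ‖ν c (J₀ + j) - ν c J₀‖ ≤ ρ ^ 2 * V := by
    intro c hc j hj
    refine (ed_diff_var (sw g) (sw (ga c)) hρ J₀ _ (I₀ + c * N) j hj).trans ?_
    refine mul_le_mul_of_nonneg_left ?_ (by positivity)
    have := single_le_sum (f := fun i => ∑ j ∈ range (N * (W * N)),
      ‖sl (sw (ga ((I₀ + i) / N % N))) ρ (J₀ + j) (I₀ + i) - sl (sw g) ρ (J₀ + j) (I₀ + i)‖)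
      (fun i _ => sum_nonneg fun _ _ => norm_nonneg _) (mem_range.2 (hlt c hc))
    simpa only [hcV c hc] using this
  obtain ⟨b, hb, b', hb', hne, hclose⟩ := hpig (fun c => ((N : ℝ) * ρ ^ 2)⁻¹ • ν c J₀) (by
    intro c _
    have := ed_sub_le (hga c).sw hg.sw hρ.le J₀ J₀ (I₀ + c * N) fun t => hM c t _
    rw [norm_smul, Real.norm_eq_abs, abs_of_nonneg (by positivity)]
    calc _ ≤ ((N : ℝ) * ρ ^ 2)⁻¹ * (4 * D * N * ρ * ρ) := by gcongr
      _ = 4 * D := by field_simp)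
  have hclose' : ‖ν b J₀ - ν b' J₀‖ ≤ N * ρ ^ 2 / (4 * D) := by
    simp only [← smul_sub, norm_smul, Real.norm_eq_abs] at hclose
    rw [abs_of_nonneg (by positivity), inv_mul_le_iff₀ (by positivity)] at hclose
    exact hclose.trans_eq (by ring)
  have hrow : ∀ j' < W * N, N / (4 * D) ≤ ∑ i ∈ range (N * N),
      ‖sl (ga ((J₀ + (b * (W * N) + j')) / (W * N) % N)) ρ (I₀ + i) (J₀ + (b * (W * N) + j')) -
        sl g ρ (I₀ + i) (J₀ + (b * (W * N) + j'))‖ + V := by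
    intro j' hj'
    set j := b * (W * N) + j' with hj
    have hjlt : j < N * (W * N) := by
      calc j < b * (W * N) + W * N := by omega
        _ = (b + 1) * (W * N) := by ring
        _ ≤ N * (W * N) := Nat.mul_le_mul_right _ hb
    have hcH : (J₀ + j) / (W * N) % N = b := by
      rw [hJ₀, hj, ← add_assoc, ← mul_assoc, ← add_mul, add_comm, Nat.add_mul_div_right _ _ (by omega),
        Nat.div_eq_of_lt hj', zero_add, Nat.mul_add_mod_of_lt hb]
    have hs := hsep (b' * N) (hlt b' hb') j hjlt (by rw [hcH, hcV b' hb']; exact hne)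
    rw [hcH, hcV b' hb'] at hs
    rw [hcH]
    set H := ∑ i ∈ range (N * N), ‖sl (ga b) ρ (I₀ + i) (J₀ + j) - sl g ρ (I₀ + i) (J₀ + j)‖
    set J := J₀ + j
    let η : ℕ → E := fun I => ed (ga b) ρ I J - ed g ρ I J
    have hη : ∀ c < N, ‖η (I₀ + c * N) - η I₀‖ ≤ ρ ^ 2 * H := fun c hc =>
      ed_diff_var g (ga b) hρ I₀ _ J (c * N) (hlt c hc).le
    have hc : ∀ c, ‖(η (I₀ + c * N) - ν c J) - ρ • (ga b ((I₀ + c * N : ℕ) * ρ) (J * ρ) -
        ga c ((I₀ + c * N : ℕ) * ρ) (J * ρ))‖ ≤ 4 * (D * ρ * ρ) := by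
      intro c
      have h1 := ed_corner (hga b) hD.le hρ.le (I₀ + c * N) J
      have h2 := ed_corner hg hD.le hρ.le (I₀ + c * N) J
      have h3 := ed_corner (hga c).sw hD.le hρ.le J (I₀ + c * N)
      have h4 := ed_corner hg.sw hD.le hρ.le J (I₀ + c * N)
      simp only [sw] at h3 h4
      have e : ∀ a₁ a₂ a₃ a₄ p q r : E, ((a₁ - a₂) - (a₃ - a₄)) - ρ • (p - r) =
          ((a₁ - ρ • p) - (a₂ - ρ • q)) - ((a₃ - ρ • r) - (a₄ - ρ • q)) := by
        intros; rw [smul_sub]; abel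
      simp only [η, ν]
      rw [e _ _ _ _ _ (g ((I₀ + c * N : ℕ) * ρ) (J * ρ))]
      refine (norm_sub_le _ _).trans ?_
      refine (add_le_add (norm_sub_le _ _) (norm_sub_le _ _)).trans ?_
      linarith
    have h1 := hc b
    rw [sub_self, smul_zero, sub_zero] at h1
    have h2 := hc b'
    set δ := ga b ((I₀ + b' * N : ℕ) * ρ) (J * ρ) - ga b' ((I₀ + b' * N : ℕ) * ρ) (J * ρ)
    have e : ρ • δ = -((η (I₀ + b' * N) - ν b' J) - ρ • δ) + (η (I₀ + b' * N) - η I₀) -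
        (η (I₀ + b * N) - η I₀) + (η (I₀ + b * N) - ν b J) + (ν b J - ν b J₀) +
        (ν b J₀ - ν b' J₀) - (ν b' J - ν b' J₀) := by abel
    have h3 : ‖ρ • δ‖ ≤ 4 * (D * ρ * ρ) + ρ ^ 2 * H + ρ ^ 2 * H + 4 * (D * ρ * ρ) + ρ ^ 2 * V +
        N * ρ ^ 2 / (4 * D) + ρ ^ 2 * V := by
      rw [e]
      refine (norm_sub_le _ _).trans (add_le_add ?_ (hνV b' hb' j hjlt.le))
      refine (norm_add_le _ _).trans (add_le_add ?_ hclose')
      refine (norm_add_le _ _).trans (add_le_add ?_ (hνV b hb j hjlt.le))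
      refine (norm_add_le _ _).trans (add_le_add ?_ h1)
      refine (norm_sub_le _ _).trans (add_le_add ?_ (hη b hb))
      refine (norm_add_le _ _).trans (add_le_add ?_ (hη b' hb'))
      rwa [norm_neg]
    rw [norm_smul, Real.norm_eq_abs, abs_of_pos hρ] at h3
    have h4 : N * ρ / D ≤ ‖δ‖ := by rw [div_le_iff₀ hD]; linarith
    have h5 : ρ ^ 2 * (4 * (N / (4 * D))) ≤ ρ * ‖δ‖ := by
      calc _ = ρ * (N * ρ / D) := by field_simp
        _ ≤ _ := by gcongr
    have h6 : 8 * D ≤ N / (4 * D) := by rw [le_div_iff₀ (by positivity)]; linarith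
    have h7 : ρ ^ 2 * (4 * (N / (4 * D))) ≤ ρ ^ 2 * (8 * D + 2 * H + 2 * V + N / (4 * D)) := by
      refine (h5.trans h3).trans_eq ?_
      ring
    have h8 := le_of_mul_le_mul_left h7 (by positivity)
    linarith
  have h1 := sum_le_sum (s := range (W * N)) fun j' hj' => hrow j' (mem_range.1 hj')
  rw [sum_add_distrib, sum_const, sum_const, card_range, nsmul_eq_mul, nsmul_eq_mul] at h1
  push_cast at h1
  refine h1.trans (add_le_add ?_ le_rfl)
  rw [sum_range_mul' _ N (W * N)]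
  exact single_le_sum (f := fun a => ∑ j' ∈ range (W * N), ∑ i ∈ range (N * N),
    ‖sl (ga ((J₀ + (a * (W * N) + j')) / (W * N) % N)) ρ (I₀ + i) (J₀ + (a * (W * N) + j')) -
        sl g ρ (I₀ + i) (J₀ + (a * (W * N) + j'))‖)
    (fun _ _ => sum_nonneg fun _ _ => sum_nonneg fun _ _ => norm_nonneg _) (mem_range.2 hb)

end Crest.Agent.R254
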