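import Mathlib

/-!
# R254: the doubling set
-/

set_option autoImplicit false

namespace Crest.Agent.R254

open Finset

/-- Number of colours at level `j`. -/
def pN (j : ℕ) : ℕ := 4000 + (Nat.unpair (Nat.unpair j).1).1
/-- Aspect ratio of the cells at level `j`. -/
def pW (j : ℕ) : ℕ := 1 + (Nat.unpair (Nat.unpair (Nat.unpair j).1).2).1
/-- Number of vertical periods at level `j`. -/
def pT (j : ℕ) : ℕ := 1 + (Nat.unpair (Nat.unpair (Nat.unpair j).1).2).2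
/-- Subdivision ratio at level `j`. -/
def pn (j : ℕ) : ℕ := pT j * pW j * (pN j * pN j)
/-- Side of the squares of level `j`. -/
noncomputable def pS : ℕ → ℝ
  | 0 => 1
  | j + 1 => pS j / pn j
/-- Height of the sheets of level `j`. -/
noncomputable def pr (j : ℕ) : ℝ := pN j * pS (j + 1)

theorem pN_ge (j : ℕ) : 4000 ≤ pN j := Nat.le_add_right _ _
theorem pN_pos (j : ℕ) : 0 < pN j := lt_of_lt_of_le (by norm_num) (pN_ge j)
theorem pW_pos (j : ℕ) : 0 < pW j := by unfold pW; omega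
theorem pT_pos (j : ℕ) : 0 < pT j := by unfold pT; omega
theorem pn_pos (j : ℕ) : 0 < pn j := by
  have := pN_pos j; have := pW_pos j; have := pT_pos j
  unfold pn; positivity

theorem exists_level {N W T : ℕ} (hN : 4000 ≤ N) (hW : 0 < W) (hT : 0 < T) (l : ℕ) :
    ∃ j, l ≤ j ∧ pN j = N ∧ pW j = W ∧ pT j = T := by
  refine ⟨Nat.pair (Nat.pair (N - 4000) (Nat.pair (W - 1) (T - 1))) l, Nat.right_le_pair _ _, ?_⟩
  simp only [pN, pW, pT, Nat.unpair_pair]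
  omega

theorem pS_pos (j : ℕ) : 0 < pS j := by
  induction j with
  | zero => simp [pS]
  | succ j ih => have := pn_pos j; unfold pS; positivity

theorem pS_eq (j : ℕ) : pS j = pn j * pS (j + 1) := by
  have : (pn j : ℝ) ≠ 0 := by have := pn_pos j; positivity
  rw [pS]; field_simp

theorem pr_pos (j : ℕ) : 0 < pr j := by
  have := pN_pos j; have := pS_pos (j + 1); unfold pr; positivity

theorem pr_le (j : ℕ) : 4000 * pr j ≤ pS j := by
  rw [pS_eq j, pr, ← mul_assoc]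
  refine mul_le_mul_of_nonneg_right ?_ (pS_pos _).le
  have h1 := pN_ge j
  have h2 := pW_pos j
  have h3 := pT_pos j
  have : 4000 * pN j ≤ pn j := by
    unfold pn
    calc 4000 * pN j ≤ pN j * pN j := Nat.mul_le_mul_right _ h1
      _ ≤ pT j * pW j * (pN j * pN j) := Nat.le_mul_of_pos_left _ (by positivity)
  exact_mod_cast this

theorem pr_succ_le (j : ℕ) : 4000 * pr (j + 1) ≤ pr j := by
  refine (pr_le _).trans ?_
  have : (1 : ℝ) ≤ pN j := by exact_mod_cast pN_pos j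
  unfold pr
  nlinarith [pS_pos (j + 1)]

theorem exists_pr_le {ε : ℝ} (hε : 0 < ε) : ∃ j, pr j ≤ ε := by
  have h : ∀ j, pr j ≤ (1 / 2) ^ j := by
    intro j
    induction j with
    | zero => have := pr_le 0; have := pr_pos 0; simp only [pS] at *; norm_num; linarith
    | succ j ih => have := pr_succ_le j; have := pr_pos (j + 1); rw [pow_succ]; linarith
  obtain ⟨j, hj⟩ := exists_pow_lt_of_lt_one hε (show (1 / 2 : ℝ) < 1 by norm_num)
  exact ⟨j, (h j).trans hj.le⟩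

theorem sum_pr_le (a k : ℕ) : ∑ j ∈ Ico a (a + k), pr j + 2 * pr (a + k) ≤ 2 * pr a := by
  induction k with
  | zero => simp
  | succ k ih =>
    rw [← add_assoc, sum_Ico_succ_top (by omega)]
    have := pr_succ_le (a + k)
    have := pr_pos (a + k + 1)
    linarith

/-- Two directions spanning a complemented plane, and a separated sequence in the complement. -/
structure Frame (B : Type*) [NormedAddCommGroup B] [NormedSpace ℝ B] where
  e₁ : B
  e₂ : B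
  w : ℕ → B
  φ₁ : B →L[ℝ] ℝ
  φ₂ : B →L[ℝ] ℝ
  he₁ : ‖e₁‖ = 1
  he₂ : ‖e₂‖ = 1
  hφ₁ : ‖φ₁‖ ≤ 1
  hφ₂ : ‖φ₂‖ ≤ 1
  h₁₁ : φ₁ e₁ = 1
  h₁₂ : φ₁ e₂ = 0
  h₂₂ : φ₂ e₂ = 1
  h₁w : ∀ a, φ₁ (w a) = 0
  h₂w : ∀ a, φ₂ (w a) = 0
  hw : ∀ a, ‖w a‖ ≤ 4
  hw' : ∀ a, 1 ≤ ‖w a‖
  hsep : ∀ a b, a ≠ b → 1 ≤ ‖w a - w b‖

variable {B : Type*} [NormedAddCommGroup B] [NormedSpace ℝ B]

theorem not_fin_ker {V : Type*} [AddCommGroup V] [Module ℝ V] (h : ¬ FiniteDimensional ℝ V)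
    {V' : Type*} [AddCommGroup V'] [Module ℝ V'] [FiniteDimensional ℝ V'] (φ : V →ₗ[ℝ] V') :
    ¬ FiniteDimensional ℝ (LinearMap.ker φ) := by
  intro hk
  have : FiniteDimensional ℝ (V ⧸ LinearMap.ker φ) := φ.quotKerEquivRange.symm.finiteDimensional
  exact h (Module.Finite.of_submodule_quotient (LinearMap.ker φ))

theorem exists_unit {V : Type*} [NormedAddCommGroup V] [NormedSpace ℝ V]
    (h : ¬ FiniteDimensional ℝ V) : ∃ e : V, ‖e‖ = 1 := by
  have : Nontrivial V := by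
    by_contra hn
    rw [not_nontrivial_iff_subsingleton] at hn
    exact h inferInstance
  exact exists_norm_eq V zero_le_one

theorem exists_frame [CompleteSpace B] (h : ¬ FiniteDimensional ℝ B) : Nonempty (Frame B) := by
  obtain ⟨e₁, he₁⟩ := exists_unit h
  obtain ⟨φ₁, hφ₁, h₁₁⟩ := exists_dual_vector'' ℝ e₁
  obtain ⟨e₂, he₂⟩ := exists_unit (not_fin_ker h φ₁.toLinearMap)
  obtain ⟨φ₂, hφ₂, h₂₂⟩ := exists_dual_vector'' ℝ (e₂ : B)
  obtain ⟨f, hf, hf'⟩ := exists_seq_norm_le_one_le_norm_sub' (𝕜 := ℝ) (c := 3 / 2) (R := 2)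
    (by norm_num) (by norm_num) (not_fin_ker h (φ₁.prod φ₂).toLinearMap)
  have hk : ∀ a, φ₁ (f a) = 0 ∧ φ₂ (f a) = 0 := fun a => by simpa using (f a).2
  refine ⟨⟨e₁, e₂, fun a => f (a + 1) - f 0, φ₁, φ₂, he₁, he₂, hφ₁, hφ₂, by simpa [he₁] using h₁₁,
    e₂.2, ?_, fun a => by simp [hk], fun a => by simp [hk], fun a => ?_, fun a => ?_,
    fun a b hab => ?_⟩⟩
  · rw [h₂₂]; simpa using he₂
  · have h1 : ‖(f (a + 1) : B)‖ ≤ 2 := hf (a + 1)
    have h2 : ‖(f 0 : B)‖ ≤ 2 := hf 0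
    linarith [norm_sub_le (f (a + 1) : B) (f 0)]
  · exact hf' (Nat.succ_ne_zero a)
  · rw [sub_sub_sub_cancel_right]
    exact hf' (by omega : a + 1 ≠ b + 1)

/-- The height vector. -/
noncomputable def Z : (ℕ →₀ B) →ₗ[ℝ] B := Finsupp.lsum ℝ fun j => pr j • LinearMap.id

theorem Z_single (j : ℕ) (b : B) : Z (Finsupp.single j b) = pr j • b := by simp [Z]

theorem Z_apply (v : ℕ →₀ B) : Z v = ∑ j ∈ v.support, pr j • v j := by
  simp [Z, Finsupp.lsum_apply, Finsupp.sum]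

theorem Z_tail (u : ℕ →₀ B) (a : ℕ) (h0 : ∀ j < a, u j = 0) (h8 : ∀ j, ‖u j‖ ≤ 8) :
    ‖Z u‖ ≤ 16 * pr a := by
  rw [Z_apply]
  have hs : u.support ⊆ Ico a (a + (u.support.sup id + 1)) := by
    intro j hj
    have h1 : j ≤ u.support.sup id := le_sup (f := id) hj
    have h2 : ¬ j < a := fun h => Finsupp.mem_support_iff.1 hj (h0 j h)
    rw [mem_Ico]; omega
  calc _ ≤ ∑ j ∈ u.support, 8 * pr j := by
        refine (norm_sum_le _ _).trans (sum_le_sum fun j _ => ?_)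
        rw [norm_smul, Real.norm_eq_abs, abs_of_pos (pr_pos j), mul_comm]
        exact mul_le_mul_of_nonneg_right (h8 j) (pr_pos j).le
    _ ≤ ∑ j ∈ Ico a (a + (u.support.sup id + 1)), 8 * pr j :=
        sum_le_sum_of_subset_of_nonneg hs fun j _ _ => by have := pr_pos j; positivity
    _ ≤ 16 * pr a := by
        rw [← mul_sum]
        have := sum_pr_le a (u.support.sup id + 1)
        have := pr_pos (a + (u.support.sup id + 1))
        linarith

theorem Z_head (u : ℕ →₀ B) (a : ℕ) (h0 : ∀ j < a, u j = 0) (h8 : ∀ j, ‖u j‖ ≤ 8) :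
    ‖Z u - pr a • u a‖ ≤ pr a / 250 := by
  have h1 : Z u - pr a • u a = Z (u.erase a) := by
    rw [← Z_single, sub_eq_iff_eq_add, ← map_add, Finsupp.erase_add_single]
  have h2 := Z_tail (u.erase a) (a + 1) (fun j hj => by
    rw [Finsupp.erase_apply]
    split_ifs with h
    · rfl
    · exact h0 j (by omega)) (fun j => by
    rw [Finsupp.erase_apply]
    split_ifs with h
    · simp
    · exact h8 j)
  rw [h1]
  linarith [pr_succ_le a]

/-- The colours available at level `j` above the point `(s, t)`. -/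
def Col (j : ℕ) (s t : ℝ) (a : ℕ) : Prop :=
  (∃ x : ℕ, x % pN j = a ∧ x * pr j ≤ s ∧ s ≤ (x + 1) * pr j) ∨
    ∃ y : ℕ, y % pN j = a ∧ y * (pW j * pr j) ≤ t ∧ t ≤ (y + 1) * (pW j * pr j)

namespace Frame

variable (F : Frame B)

/-- Admissible heights above `(s, t)`. -/
def Adm (s t : ℝ) (v : ℕ →₀ B) : Prop := ∀ j, v j = 0 ∨ ∃ a, Col j s t a ∧ v j = F.w a

/-- The point of the sheet `z` above `(s, t)`. -/
def pt (z : B) (s t : ℝ) : B := s • F.e₁ + t • F.e₂ + z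

/-- The set. -/
def X : Set B :=
  {x | ∃ s t v, 0 ≤ s ∧ s ≤ 1 ∧ 0 ≤ t ∧ t ≤ 1 ∧ F.Adm s t v ∧ x = F.pt (Z v) s t}

variable {F}

theorem Adm.norm_le {s t : ℝ} {v : ℕ →₀ B} (h : F.Adm s t v) (j : ℕ) : ‖v j‖ ≤ 4 := by
  rcases h j with h | ⟨a, -, h⟩ <;> rw [h]
  · simp
  · exact F.hw a

theorem Adm.norm_sub_le {s t s' t' : ℝ} {v v' : ℕ →₀ B} (h : F.Adm s t v) (h' : F.Adm s' t' v')
    (j : ℕ) : ‖(v - v') j‖ ≤ 8 := by
  rw [Finsupp.sub_apply]
  linarith [_root_.norm_sub_le (v j) (v' j), h.norm_le j, h'.norm_le j]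

theorem Adm.sep {s t s' t' : ℝ} {v v' : ℕ →₀ B} (h : F.Adm s t v) (h' : F.Adm s' t' v')
    (j : ℕ) (hj : (v - v') j ≠ 0) : 1 ≤ ‖(v - v') j‖ := by
  rw [Finsupp.sub_apply] at hj ⊢
  rcases h j with h | ⟨a, -, h⟩ <;> rcases h' j with h' | ⟨a', -, h'⟩ <;> rw [h, h'] at hj ⊢
  · simp at hj
  · simpa using F.hw' a'
  · simpa using F.hw' a
  · exact F.hsep a a' fun e => hj (by rw [e, sub_self])

theorem Adm.ker {s t : ℝ} {v : ℕ →₀ B} (h : F.Adm s t v) : F.φ₁ (Z v) = 0 ∧ F.φ₂ (Z v) = 0 := by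
  simp only [Z_apply, map_sum, map_smul]
  constructor <;> refine sum_eq_zero fun j _ => ?_ <;> rcases h j with h | ⟨a, -, h⟩ <;>
    simp [h, F.h₁w, F.h₂w]

theorem pt_sub_le (z z' : B) (s t s' t' : ℝ) :
    ‖F.pt z s t - F.pt z' s' t'‖ ≤ |s - s'| + |t - t'| + ‖z - z'‖ := by
  have : F.pt z s t - F.pt z' s' t' = (s - s') • F.e₁ + (t - t') • F.e₂ + (z - z') := by
    simp only [pt, sub_smul]; abel
  rw [this]
  refine (norm_add_le _ _).trans (add_le_add ((norm_add_le _ _).trans_eq ?_) le_rfl)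
  simp [norm_smul, F.he₁, F.he₂]

theorem coords_le {s t s' t' : ℝ} {v v' : ℕ →₀ B} (h : F.Adm s t v) (h' : F.Adm s' t' v') {d : ℝ}
    (hd : ‖F.pt (Z v) s t - F.pt (Z v') s' t'‖ ≤ d) :
    |s - s'| ≤ d ∧ |t - t'| ≤ 2 * d ∧ ‖Z v - Z v'‖ ≤ 4 * d := by
  have e : F.pt (Z v) s t - F.pt (Z v') s' t' =
      (s - s') • F.e₁ + (t - t') • F.e₂ + (Z v - Z v') := by
    simp only [pt, sub_smul]; abel
  have b₁ : ∀ x, |F.φ₁ x| ≤ ‖x‖ := fun x =>
    (F.φ₁.le_opNorm x).trans (mul_le_of_le_one_left (norm_nonneg _) F.hφ₁)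
  have b₂ : ∀ x, |F.φ₂ x| ≤ ‖x‖ := fun x =>
    (F.φ₂.le_opNorm x).trans (mul_le_of_le_one_left (norm_nonneg _) F.hφ₂)
  have h1 := (b₁ _).trans hd
  have h2 := (b₂ _).trans hd
  rw [e] at h1 h2
  simp only [map_add, map_smul, map_sub, h.ker, h'.ker, F.h₁₁, F.h₁₂, F.h₂₂, smul_eq_mul, mul_one,
    mul_zero, add_zero, sub_self] at h1 h2
  have h3 : |(s - s') * F.φ₂ F.e₁| ≤ d := by
    rw [abs_mul]
    exact (mul_le_of_le_one_right (abs_nonneg _) ((b₂ _).trans_eq F.he₁)).trans h1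
  have h4 : |t - t'| ≤ 2 * d := by
    rw [abs_le] at h2 h3 ⊢
    constructor <;> linarith [h2.1, h2.2, h3.1, h3.2]
  refine ⟨h1, h4, ?_⟩
  have e' : Z v - Z v' = (F.pt (Z v) s t - F.pt (Z v') s' t') - (s - s') • F.e₁ -
      (t - t') • F.e₂ := by rw [e]; abel
  rw [e']
  refine (norm_sub_le _ _).trans ?_
  refine (add_le_add (norm_sub_le _ _) le_rfl).trans ?_
  simp only [norm_smul, F.he₁, F.he₂, mul_one, Real.norm_eq_abs]
  linarith

end Frame

theorem cover_of_types {α ι : Type*} [PseudoMetricSpace α] (A : Set α) (hA : A.Nonempty)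
    (T : Finset ι) (Typ : α → ι → Prop) (R : ℝ) (h1 : ∀ x ∈ A, ∃ τ ∈ T, Typ x τ)
    (h2 : ∀ x ∈ A, ∀ y ∈ A, ∀ τ, Typ x τ → Typ y τ → dist x y ≤ R) :
    ∃ C : Finset α, (↑C : Set α) ⊆ A ∧ C.card ≤ T.card ∧ A ⊆ ⋃ c ∈ C, Metric.closedBall c R := by
  classical
  have : ∀ τ, ∃ y ∈ A, (∃ x ∈ A, Typ x τ) → Typ y τ := by
    intro τ
    by_cases h : ∃ x ∈ A, Typ x τ
    · obtain ⟨x, hx, hx'⟩ := h
      exact ⟨x, hx, fun _ => hx'⟩
    · obtain ⟨x, hx⟩ := hA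
      exact ⟨x, hx, fun h' => absurd h' h⟩
  choose y hy hy' using this
  refine ⟨T.image y, ?_, card_image_le, fun x hx => ?_⟩
  · intro c hc
    obtain ⟨τ, -, rfl⟩ := mem_image.1 hc
    exact hy τ
  · obtain ⟨τ, hτ, hxτ⟩ := h1 x hx
    simp only [Set.mem_iUnion, Metric.mem_closedBall]
    exact ⟨y τ, mem_image_of_mem _ hτ, h2 x hx _ (hy τ) τ hxτ (hy' τ ⟨x, hx, hxτ⟩)⟩

theorem idx_mem {ρ s s₀ : ℝ} (hρ : 0 < ρ) (hs₀ : 0 ≤ s₀) {x : ℕ} (h1 : x * ρ ≤ s)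
    (h2 : s ≤ (x + 1) * ρ) (h3 : |s - s₀| ≤ 384 * ρ) :
    x ∈ Icc (⌊s₀ / ρ⌋₊ - 385) (⌊s₀ / ρ⌋₊ + 385) := by
  have h4 : (⌊s₀ / ρ⌋₊ : ℝ) * ρ ≤ s₀ := by
    rw [← le_div_iff₀ hρ]; exact Nat.floor_le (by positivity)
  have h5 : s₀ < (⌊s₀ / ρ⌋₊ + 1 : ℝ) * ρ := by
    rw [← div_lt_iff₀ hρ]; exact Nat.lt_floor_add_one _
  rw [abs_le] at h3
  have h6 : (x : ℝ) ≤ ⌊s₀ / ρ⌋₊ + 385 := le_of_mul_le_mul_right (by linarith [h3.2]) hρ
  have h7 : (⌊s₀ / ρ⌋₊ : ℝ) ≤ x + 385 := le_of_mul_le_mul_right (by linarith [h3.1]) hρ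
  have h6' : x ≤ ⌊s₀ / ρ⌋₊ + 385 := by exact_mod_cast h6
  have h7' : ⌊s₀ / ρ⌋₊ ≤ x + 385 := by exact_mod_cast h7
  rw [mem_Icc]; omega

theorem floor_mem {R s : ℝ} (hR : 0 < R) (h : |s| ≤ 12 * R) : ⌊8 * s / R⌋ ∈ Icc (-96 : ℤ) 96 := by
  rw [abs_le] at h
  rw [mem_Icc, Int.le_floor, Int.floor_le_iff, le_div_iff₀ hR, div_lt_iff₀ hR]
  push_cast
  constructor <;> linarith [h.1, h.2]

theorem close_of_floor {R s s' s₀ : ℝ} (hR : 0 < R)
    (h : ⌊8 * (s - s₀) / R⌋ = ⌊8 * (s' - s₀) / R⌋) : |s - s'| ≤ R / 8 := by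
  have := Int.abs_sub_lt_one_of_floor_eq_floor h
  rw [show 8 * (s - s₀) / R - 8 * (s' - s₀) / R = (s - s') * (8 / R) by ring, abs_mul,
    abs_of_pos (show 0 < 8 / R by positivity), ← lt_div_iff₀ (by positivity)] at this
  refine this.le.trans_eq ?_
  field_simp

theorem Frame.cover (F : Frame B) (c : B) {R : ℝ} (hR : 0 < R) :
    ∃ C : Finset B, (↑C : Set B) ⊆ F.X ∧ C.card ≤ 193 * 193 * 1543 ∧
      F.X ∩ Metric.closedBall c (3 * R) ⊆ ⋃ c ∈ C, Metric.closedBall c R := by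
  classical
  rcases (F.X ∩ Metric.closedBall c (3 * R)).eq_empty_or_nonempty with h | hA
  · exact ⟨∅, by simp, by simp, by rw [h]; exact Set.empty_subset _⟩
  have hd : ∀ x ∈ F.X ∩ Metric.closedBall c (3 * R), ∀ y ∈ F.X ∩ Metric.closedBall c (3 * R),
      ‖x - y‖ ≤ 6 * R := by
    intro x hx y hy
    have h1 : dist x c ≤ 3 * R := hx.2
    have h2 : dist y c ≤ 3 * R := hy.2
    rw [← dist_eq_norm]
    linarith [dist_triangle_right x y c]
  obtain ⟨x₀, hx₀⟩ := id hA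
  obtain ⟨s₀, t₀, v₀, hs₀, -, ht₀, -, hv₀, e₀⟩ := hx₀.1
  have hex : ∃ j, pr j ≤ 48 * R := exists_pr_le (by positivity)
  set j₀ := Nat.find hex with hj₀
  have hj₀R : pr j₀ ≤ 48 * R := Nat.find_spec hex
  have hr := pr_pos j₀
  have hW : (1 : ℝ) ≤ pW j₀ := by exact_mod_cast pW_pos j₀
  let T₃ : Finset B := insert 0
    (((Icc (⌊s₀ / pr j₀⌋₊ - 385) (⌊s₀ / pr j₀⌋₊ + 385)).image fun x => F.w (x % pN j₀)) ∪
      ((Icc (⌊t₀ / (pW j₀ * pr j₀)⌋₊ - 385) (⌊t₀ / (pW j₀ * pr j₀)⌋₊ + 385)).image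
        fun x => F.w (x % pN j₀)))
  obtain ⟨A, hAc, hAm⟩ : ∃ A : Finset ℤ, A.card = 193 ∧ ∀ s : ℝ, |s| ≤ 12 * R → ⌊8 * s / R⌋ ∈ A :=
    ⟨Icc (-96) 96, by rw [Int.card_Icc]; rfl, fun s hs => floor_mem hR hs⟩
  obtain ⟨C, h1, h2, h3⟩ := cover_of_types _ hA (A ×ˢ A ×ˢ T₃)
    (fun x τ => ∃ s t v, F.Adm s t v ∧ x = F.pt (Z v) s t ∧ ⌊8 * (s - s₀) / R⌋ = τ.1 ∧
      ⌊8 * (t - t₀) / R⌋ = τ.2.1 ∧ (pr j₀ ≤ R / 32 ∨ v j₀ = τ.2.2)) R (by
      intro x hx
      obtain ⟨s, t, v, -, -, -, -, hv, e⟩ := hx.1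
      obtain ⟨c1, c2, -⟩ := Frame.coords_le hv hv₀ (d := 6 * R) (e ▸ e₀ ▸ hd x hx x₀ hx₀)
      have f1 := hAm (s - s₀) (by linarith)
      have f2 := hAm (t - t₀) (by linarith)
      by_cases hsm : pr j₀ ≤ R / 32
      · exact ⟨(_, _, 0), mk_mem_product f1 (mk_mem_product f2 (mem_insert_self _ _)),
          s, t, v, hv, e, rfl, rfl, Or.inl hsm⟩
      refine ⟨(_, _, v j₀), mk_mem_product f1 (mk_mem_product f2 ?_),
          s, t, v, hv, e, rfl, rfl, Or.inr rfl⟩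
      push Not at hsm
      rcases hv j₀ with h | ⟨a, ⟨k, rfl, k1, k2⟩ | ⟨k, rfl, k1, k2⟩, h⟩ <;> simp only [h]
      · exact mem_insert_self _ _
      · refine mem_insert_of_mem (mem_union_left _ (mem_image_of_mem _ ?_))
        exact idx_mem hr hs₀ k1 k2 (by linarith)
      · refine mem_insert_of_mem (mem_union_right _ (mem_image_of_mem _ ?_))
        exact idx_mem (by positivity) ht₀ k1 k2 (by nlinarith)) (by
      rintro x hx y hy τ ⟨s, t, v, hv, e, f1, f2, f3⟩ ⟨s', t', v', hv', e', f1', f2', f3'⟩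
      obtain ⟨-, -, c3⟩ := Frame.coords_le hv hv' (d := 6 * R) (e ▸ e' ▸ hd x hx y hy)
      rw [← map_sub] at c3
      have h8 := hv.norm_sub_le hv'
      have h0 : ∀ j < j₀, (v - v') j = 0 := by
        intro j hj
        induction j using Nat.strong_induction_on with
        | _ j ih =>
        by_contra hne
        have k1 := Z_head (v - v') j (fun i hi => ih i hi (hi.trans hj)) h8
        have k2 := hv.sep hv' j hne
        have k3 : ¬ pr j ≤ 48 * R := Nat.find_min hex hj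
        have k4 := pr_pos j
        have k5 : pr j ≤ ‖pr j • (v - v') j‖ := by
          rw [norm_smul, Real.norm_eq_abs, abs_of_pos k4]
          exact le_mul_of_one_le_right k4.le k2
        have k6 := norm_sub_norm_le (pr j • (v - v') j) (Z (v - v'))
        rw [norm_sub_rev] at k6
        linarith
      have k1 := Z_head (v - v') j₀ h0 h8
      have k2 : ‖pr j₀ • (v - v') j₀‖ ≤ R / 4 := by
        have hs : pr j₀ ≤ R / 32 → ‖pr j₀ • (v - v') j₀‖ ≤ R / 4 := fun h => by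
          rw [norm_smul, Real.norm_eq_abs, abs_of_pos hr]
          nlinarith [h8 j₀]
        rcases f3 with f3 | f3
        · exact hs f3
        rcases f3' with f3' | f3'
        · exact hs f3'
        rw [Finsupp.sub_apply, f3, f3', sub_self, smul_zero, norm_zero]
        positivity
      have k3 := norm_sub_norm_le (Z (v - v')) (pr j₀ • (v - v') j₀)
      have k4 := close_of_floor hR (f1.trans f1'.symm)
      have k5 := close_of_floor hR (f2.trans f2'.symm)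
      have k6 := Frame.pt_sub_le (F := F) (Z v) (Z v') s t s' t'
      rw [← map_sub] at k6
      rw [dist_eq_norm, e, e']
      linarith)
  refine ⟨C, h1.trans Set.inter_subset_left, h2.trans ?_, h3⟩
  have hT : T₃.card ≤ 1543 := by
    refine (card_insert_le _ _).trans ?_
    refine (Nat.add_le_add_right ((card_union_le _ _).trans
      (Nat.add_le_add card_image_le card_image_le)) 1).trans ?_
    simp only [Nat.card_Icc]
    omega
  rw [card_product, card_product, hAc]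
  omega

end Crest.Agent.R254
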