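import Crest.Agent.R254.Step
import Crest.Agent.R254.Space
import Crest.Prelude.Def_Doubling

/-!
# R254: the set does not embed; its closure is compact and doubling
-/

set_option autoImplicit false

namespace Crest.Agent.R254

open Finset

variable {B : Type*} [NormedAddCommGroup B] [NormedSpace ℝ B]

theorem div_bounds {m : ℕ} (hm : 0 < m) (I : ℕ) {ρ s : ℝ} (hρ : 0 ≤ ρ) (h1 : I * ρ ≤ s)
    (h2 : s ≤ (I + 1) * ρ) :
    (I / m : ℕ) * (m * ρ) ≤ s ∧ s ≤ ((I / m : ℕ) + 1) * (m * ρ) := by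
  have a1 : ((I / m : ℕ) : ℝ) * m ≤ I := by exact_mod_cast Nat.div_mul_le_self I m
  have a2 : (I : ℝ) + 1 ≤ ((I / m : ℕ) + 1) * m := by
    have := Nat.lt_div_mul_add (a := I) hm
    have h : I + 1 ≤ (I / m + 1) * m := by rw [add_mul]; omega
    exact_mod_cast h
  constructor
  · rw [← mul_assoc]; exact (mul_le_mul_of_nonneg_right a1 hρ).trans h1
  · rw [← mul_assoc]; exact h2.trans (mul_le_mul_of_nonneg_right a2 hρ)

namespace Frame

variable (F : Frame B)

/-- A square of level `l` on the sheet `z`. -/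
def Node (l I J : ℕ) (z : B) : Prop :=
  (I + 1) * pS l ≤ 1 ∧ (J + 1) * pS l ≤ 1 ∧ ∃ v, z = Z v ∧ (∀ j, l ≤ j → v j = 0) ∧
    ∀ s t, I * pS l ≤ s → s ≤ (I + 1) * pS l → J * pS l ≤ t → t ≤ (J + 1) * pS l → F.Adm s t v

theorem node_zero : F.Node 0 0 0 0 :=
  ⟨by simp [pS], by simp [pS], 0, by simp, fun _ _ => rfl, fun _ _ _ _ _ _ _ => Or.inl rfl⟩

variable {F}

theorem Node.mem {l I J : ℕ} {z : B} (h : F.Node l I J z) : F.pt z (I * pS l) (J * pS l) ∈ F.X := by
  obtain ⟨h1, h2, v, rfl, -, h3⟩ := h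
  have := pS_pos l
  exact ⟨_, _, v, by positivity, by linarith, by positivity, by linarith,
    h3 _ _ le_rfl (by linarith) le_rfl (by linarith), rfl⟩

theorem Node.child {l I J i j : ℕ} {z : B} (h : F.Node l I J z) (hi : i < pn l) (hj : j < pn l)
    (b : B) (hb : b = 0 ∨ b = F.w ((I * pn l + i) / pN l % pN l) ∨
      b = F.w ((J * pn l + j) / (pW l * pN l) % pN l)) :
    F.Node (l + 1) (I * pn l + i) (J * pn l + j) (z + pr l • b) := by
  obtain ⟨h1, h2, v, rfl, h3, h4⟩ := h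
  have hρ := pS_pos (l + 1)
  have lo : ∀ I i : ℕ, I * pS l ≤ (I * pn l + i : ℕ) * pS (l + 1) := by
    intro I i
    rw [pS_eq l]; push_cast
    nlinarith [mul_nonneg (Nat.cast_nonneg i : (0 : ℝ) ≤ i) hρ.le]
  have hi' : ∀ I i : ℕ, i < pn l → ((I * pn l + i : ℕ) + 1) * pS (l + 1) ≤ (I + 1) * pS l := by
    intro I i hi
    have : (i : ℝ) + 1 ≤ pn l := by exact_mod_cast hi
    rw [pS_eq l]; push_cast
    nlinarith [mul_le_mul_of_nonneg_right this hρ.le]
  refine ⟨(hi' I i hi).trans h1, (hi' J j hj).trans h2, v + Finsupp.single l b,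
    by rw [map_add, Z_single], fun k hk => ?_, fun s t a1 a2 a3 a4 k => ?_⟩
  · rw [Finsupp.add_apply, h3 k (by omega), Finsupp.single_eq_of_ne (by omega), add_zero]
  · by_cases hk : k = l
    · subst hk
      rw [Finsupp.add_apply, h3 k le_rfl, Finsupp.single_eq_same, zero_add]
      rcases hb with hb | hb | hb
      · exact Or.inl hb
      · exact Or.inr ⟨_, Or.inl ⟨_, rfl, div_bounds (pN_pos k) _ hρ.le a1 a2⟩, hb⟩
      · refine Or.inr ⟨_, Or.inr ⟨_, rfl, ?_⟩, hb⟩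
        have := div_bounds (Nat.mul_pos (pW_pos k) (pN_pos k)) _ hρ.le a3 a4
        simpa only [pr, Nat.cast_mul, mul_assoc] using this
    · rw [Finsupp.add_apply, Finsupp.single_eq_of_ne hk, add_zero]
      exact h4 s t ((lo I i).trans a1) (a2.trans (hi' I i hi)) ((lo J j).trans a3)
        (a4.trans (hi' J j hj)) k

theorem Node.base {l I J i j : ℕ} {z : B} (h : F.Node l I J z) (hi : i < pn l) (hj : j < pn l) :
    F.Node (l + 1) (I * pn l + i) (J * pn l + j) z := by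
  simpa using h.child hi hj 0 (Or.inl rfl)

theorem no_embedding (F : Frame B) {E : Type*} [NormedAddCommGroup E] [InnerProductSpace ℝ E]
    [FiniteDimensional ℝ E] (f : B → E) {D : ℝ} (hD : 0 < D)
    (hf : ∀ x y, ‖f x - f y‖ ≤ D * ‖x - y‖)
    (hf' : ∀ x ∈ F.X, ∀ y ∈ F.X, ‖x - y‖ ≤ D * ‖f x - f y‖) : False := by
  have : CompleteSpace E := FiniteDimensional.complete ℝ E
  let G : B → ℝ → ℝ → E := fun z s t => f (F.pt z s t)
  have hG : ∀ z, Lip D (G z) := fun z s t s' t' =>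
    (hf _ _).trans (mul_le_mul_of_nonneg_left (by simpa using pt_sub_le z z s t s' t') hD.le)
  have hsub : ∀ z z' s t, F.pt z s t - F.pt z' s t = z - z' := fun z z' s t => by
    simp only [pt]; abel
  obtain ⟨N₀, hN₀⟩ := exists_pig E hD
  obtain ⟨N₁, hN₁⟩ := exists_nat_ge (32 * D ^ 2)
  set N := 4000 + N₀ + N₁ with hN
  have hN0 : (0 : ℝ) < N := by rw [hN]; positivity
  have : Nonempty {p : ℕ × ℕ × ℕ × B // F.Node p.1 p.2.1 p.2.2.1 p.2.2.2} :=
    ⟨⟨(0, 0, 0, 0), F.node_zero⟩⟩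
  let u : {p : ℕ × ℕ × ℕ × B // F.Node p.1 p.2.1 p.2.2.1 p.2.2.2} → ℝ := fun p =>
    ‖sl (G p.1.2.2.2) (pS p.1.1) p.1.2.1 p.1.2.2.1‖ ^ 2
  let v : {p : ℕ × ℕ × ℕ × B // F.Node p.1 p.2.1 p.2.2.1 p.2.2.2} → ℝ := fun p =>
    ‖sl (sw (G p.1.2.2.2)) (pS p.1.1) p.1.2.2.1 p.1.2.1‖ ^ 2
  have hdesc : ∀ μ : ℝ, 0 ≤ μ → ∀ x k, ∃ x', x'.1.1 = x.1.1 + k ∧
      u x + μ * v x ≤ u x' + μ * v x' := by
    intro μ hμ x k
    induction k with
    | zero => exact ⟨x, rfl, le_rfl⟩
    | succ k ih =>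
      obtain ⟨⟨⟨l, I, J, z⟩, hx'⟩, h1, h2⟩ := ih
      obtain ⟨i, hi, j, hj, h3⟩ := descend (hG z) (pS_pos (l + 1)) (pn_pos l) I J hμ
      rw [← pS_eq] at h3
      exact ⟨⟨(l + 1, _, _, z), hx'.base hi hj⟩, by simp only at h1 ⊢; omega, h2.trans h3⟩
  refine game u v (Δ := D ^ 2) (g := (1 / (8 * D * N ^ 2)) ^ 2 / 8) (fun _ => by positivity)
    (fun p => pow_le_pow_left₀ (norm_nonneg _) (sl_norm_le (hG _) (pS_pos _) _ _) 2)
    (fun p => pow_le_pow_left₀ (norm_nonneg _) (sl_norm_le (hG _).sw (pS_pos _) _ _) 2)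
    (by positivity) fun c hc => ?_
  obtain ⟨W', hW'⟩ := exists_nat_ge (8 * D ^ 2 / c)
  set W := W' + 1 with hW
  have hW0 : (0 : ℝ) < W := by rw [hW]; positivity
  have hWc : 8 * D ^ 2 / W ≤ c := by
    rw [div_le_iff₀ hc] at hW'
    rw [div_le_iff₀ hW0, hW]
    push_cast
    nlinarith
  set γ := (1 / (8 * D * N ^ 3 * W)) ^ 2 / 8 with hγ
  have hγ0 : 0 < γ := by positivity
  obtain ⟨T', hT'⟩ := exists_nat_ge (8 * D ^ 2 / (W * N) / γ)
  set T := T' + 1 with hT
  have hT0 : (0 : ℝ) < T := by rw [hT]; positivity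
  have hTγ : 8 * D ^ 2 / (T * W * N) ≤ γ := by
    rw [div_le_iff₀ hγ0] at hT'
    rw [show 8 * D ^ 2 / (T * W * N) = 8 * D ^ 2 / (W * N) / T by field_simp, div_le_iff₀ hT0, hT]
    push_cast
    nlinarith
  refine ⟨γ, hγ0, fun x μ hμ => ?_⟩
  obtain ⟨l, hl, e1, e2, e3⟩ := exists_level (N := N) (W := W) (T := T) (by omega) (by omega)
    (by omega) x.1.1
  obtain ⟨⟨⟨l', I, J, z⟩, hx'⟩, h1, h2⟩ := hdesc μ hμ x (l - x.1.1)
  obtain rfl : l = l' := by simp only at h1; omega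
  refine ⟨_, h2, ?_⟩
  have hr : pr l = N * pS (l + 1) := by rw [pr, e1]
  have hch : ∀ i < pn l, ∀ j < pn l,
      F.Node (l + 1) (I * pn l + i) (J * pn l + j) (z + pr l • F.w ((I * pn l + i) / N % N)) ∧
      F.Node (l + 1) (I * pn l + i) (J * pn l + j)
        (z + pr l • F.w ((J * pn l + j) / (W * N) % N)) := fun i hi j hj =>
    ⟨Node.child hx' hi hj _ (Or.inr (Or.inl (by rw [e1]))),
      Node.child hx' hi hj _ (Or.inr (Or.inr (by rw [e1, e2])))⟩
  have key := step_grid (ga := fun a => G (z + pr l • F.w a)) (N := N) (W := W) (T := T)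
    (n := pn l) hD (pS_pos (l + 1))
    (hN₁.trans (by exact_mod_cast (by omega : N₁ ≤ N))) (by omega) (by omega)
    (by rw [pn, e1, e2, e3]) hTγ (hN₀ N (by omega)) (hG z) (fun a => hG _)
    (fun a s t => by
      refine (hf _ _).trans ?_
      rw [hsub, add_sub_cancel_left, norm_smul, Real.norm_eq_abs, abs_of_pos (pr_pos l), hr]
      have := F.hw a
      have := pS_pos (l + 1)
      calc _ ≤ D * (N * pS (l + 1) * 4) := by gcongr
        _ = _ := by ring) I J
    (fun i hi j hj hne => by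
      refine le_trans ?_ (hf' _ (hch i hi j hj).2.mem _ (hch i hi j hj).1.mem)
      rw [hsub, add_sub_add_left_eq_sub, ← smul_sub, norm_smul, Real.norm_eq_abs,
        abs_of_pos (pr_pos l), ← hr]
      exact le_mul_of_one_le_right (pr_pos l).le (F.hsep _ _ hne))
  rw [← pS_eq] at key
  rcases key with ⟨i, hi, j, hj, h | h⟩ | key
  · exact Or.inl ⟨⟨(l + 1, _, _, z), Node.base hx' hi hj⟩, h⟩
  · exact Or.inl ⟨⟨(l + 1, _, _, _), (hch i hi j hj).1⟩, h⟩
  · refine Or.inr fun μ' hμ' => ?_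
    have h3 := mul_le_mul_of_nonneg_left hWc hμ'
    obtain ⟨i, hi, j, hj, h | h⟩ := key μ' hμ'
    · exact ⟨⟨(l + 1, _, _, z), Node.base hx' hi hj⟩, le_trans (by simp only [u, v]; linarith) h⟩
    · exact ⟨⟨(l + 1, _, _, _), (hch i hi j hj).2⟩, le_trans (by simp only [u, v]; linarith) h⟩

theorem totallyBounded (F : Frame B) : TotallyBounded F.X := by
  have key : ∀ n : ℕ, ∃ C : Finset B, F.X ⊆ ⋃ c ∈ C, Metric.closedBall c (20 * (1 / 3) ^ n) := by
    intro n
    induction n with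
    | zero =>
      refine ⟨{0}, ?_⟩
      rintro x ⟨s, t, v, a1, a2, a3, a4, hv, rfl⟩
      have h1 := pt_sub_le (F := F) (Z v) 0 s t 0 0
      have h2 := Z_tail v 0 (by simp) fun j => (hv.norm_le j).trans (by norm_num)
      have h3 := pr_le 0
      simp only [pS] at h3
      rw [show F.pt 0 0 0 = 0 by simp [pt]] at h1
      simp only [sub_zero, abs_of_nonneg a1, abs_of_nonneg a3] at h1
      simp only [mem_singleton, Set.iUnion_iUnion_eq_left, mem_closedBall_zero_iff]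
      linarith
    | succ n ih =>
      classical
      obtain ⟨C, hC⟩ := ih
      choose C' _ _ h3 using fun c => F.cover c (R := 20 * (1 / 3) ^ (n + 1)) (by positivity)
      refine ⟨C.biUnion C', fun x hx => ?_⟩
      have h4 := hC hx
      simp only [Set.mem_iUnion] at h4 ⊢
      obtain ⟨c, hc, h4⟩ := h4
      have h5 := h3 c ⟨hx, by rwa [show 3 * (20 * (1 / 3 : ℝ) ^ (n + 1)) = 20 * (1 / 3) ^ n by ring]⟩
      simp only [Set.mem_iUnion] at h5
      obtain ⟨c', hc', h5⟩ := h5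
      exact ⟨c', mem_biUnion.2 ⟨c, hc, hc'⟩, h5⟩
  refine Metric.totallyBounded_iff.2 fun ε hε => ?_
  obtain ⟨n, hn⟩ := exists_pow_lt_of_lt_one (show 0 < ε / 20 by positivity)
    (show (1 / 3 : ℝ) < 1 by norm_num)
  obtain ⟨C, hC⟩ := key n
  refine ⟨C, C.finite_toSet, hC.trans (Set.iUnion₂_mono fun c _ => ?_)⟩
  exact Metric.closedBall_subset_ball (by linarith)

theorem isCompact_closure [CompleteSpace B] (F : Frame B) : IsCompact (closure F.X) :=
  isCompact_iff_totallyBounded_isComplete.2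
    ⟨F.totallyBounded.closure, isClosed_closure.isComplete⟩

theorem doubling (F : Frame B) :
    Crest.GeometryTopology.DoublingConstLE (closure F.X) (193 * 193 * 1543) := by
  intro x _ r hr
  obtain ⟨C, h1, h2, h3⟩ := F.cover x hr
  refine ⟨C, h1.trans subset_closure, h2, ?_⟩
  have hcl : IsClosed (⋃ c ∈ C, Metric.closedBall c r) :=
    isClosed_biUnion_finset fun _ _ => Metric.isClosed_closedBall
  intro y hy
  have h4 : y ∈ closure (F.X ∩ Metric.ball x (3 * r)) := by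
    rw [Set.inter_comm]
    exact Metric.isOpen_ball.inter_closure
      ⟨Metric.closedBall_subset_ball (by linarith) hy.2, hy.1⟩
  exact hcl.closure_subset_iff.2
    ((Set.inter_subset_inter_right _ Metric.ball_subset_closedBall).trans h3) h4

end Frame

theorem main {B : Type*} [NormedAddCommGroup B] [NormedSpace ℝ B] [CompleteSpace B]
    (hB : ¬ FiniteDimensional ℝ B) :
    ∃ K : Set B, IsCompact K ∧ Crest.GeometryTopology.DoublingConstLE K (193 * 193 * 1543) ∧
      ∀ (Y : Type*) [NormedAddCommGroup Y] [NormedSpace ℝ Y] [FiniteDimensional ℝ Y]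
        (f : K → Y) (c C : NNReal), ¬ (LipschitzWith C f ∧ AntilipschitzWith c f) := by
  classical
  obtain ⟨F⟩ := exists_frame hB
  refine ⟨closure F.X, F.isCompact_closure, F.doubling, ?_⟩
  rintro Y _ _ _ f c C ⟨h1, h2⟩
  let L := toEuclidean (E := Y)
  obtain ⟨C', h1'⟩ : ∃ C', LipschitzWith C' (L ∘ f) := ⟨_, L.lipschitz.comp h1⟩
  obtain ⟨c', h2'⟩ : ∃ c', AntilipschitzWith c' (L ∘ f) := ⟨_, L.antilipschitz.comp h2⟩
  let g : B → EuclideanSpace ℝ (Fin (Module.finrank ℝ Y)) := fun x =>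
    if h : x ∈ closure F.X then (L ∘ f) ⟨x, h⟩ else 0
  have hg : LipschitzOnWith C' g (closure F.X) := by
    intro x hx y hy
    simp only [g, dif_pos hx, dif_pos hy]
    exact h1' ⟨x, hx⟩ ⟨y, hy⟩
  obtain ⟨C'', g', hg', he⟩ : ∃ C'' g', LipschitzWith C'' g' ∧ Set.EqOn g g' (closure F.X) :=
    ⟨_, hg.extend_finite_dimension⟩
  refine F.no_embedding g' (D := C'' + c' + 1) (by positivity) (fun x y => ?_) fun x hx y hy => ?_
  · have := hg'.dist_le_mul x y
    rw [dist_eq_norm, dist_eq_norm] at this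
    refine this.trans (mul_le_mul_of_nonneg_right ?_ (norm_nonneg _))
    linarith [c'.2]
  · have hx' := subset_closure hx
    have hy' := subset_closure hy
    have := h2'.le_mul_dist ⟨x, hx'⟩ ⟨y, hy'⟩
    rw [Subtype.dist_eq, dist_eq_norm, dist_eq_norm] at this
    rw [← he hx', ← he hy']
    simp only [g, dif_pos hx', dif_pos hy']
    refine this.trans (mul_le_mul_of_nonneg_right ?_ (norm_nonneg _))
    linarith [C''.2]

end Crest.Agent.R254
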