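import Mathlib

/-!
# R254: averaged slopes of Lipschitz functions of two real variables
-/

set_option autoImplicit false

namespace Crest.Agent.R254

open Finset

variable {E : Type*} [NormedAddCommGroup E] [InnerProductSpace ℝ E] [CompleteSpace E]

theorem sum_range_mul' {M : Type*} [AddCommMonoid M] (f : ℕ → M) (A B : ℕ) :
    ∑ i ∈ range (A * B), f i = ∑ a ∈ range A, ∑ b ∈ range B, f (a * B + b) := by
  induction A with
  | zero => simp
  | succ A ih => rw [Nat.succ_mul, sum_range_add, ih, sum_range_succ]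

/-- Lipschitz in both variables. -/
def Lip (D : ℝ) (g : ℝ → ℝ → E) : Prop :=
  ∀ s t s' t', ‖g s t - g s' t'‖ ≤ D * (|s - s'| + |t - t'|)

/-- Swap the variables. -/
def sw (g : ℝ → ℝ → E) : ℝ → ℝ → E := fun t s => g s t

omit [InnerProductSpace ℝ E] [CompleteSpace E] in
theorem Lip.sw {D : ℝ} {g : ℝ → ℝ → E} (h : Lip D g) : Lip D (sw g) := fun t s t' s' => by
  rw [add_comm]; exact h s t s' t'

omit [InnerProductSpace ℝ E] [CompleteSpace E] in
theorem Lip.cont {D : ℝ} {g : ℝ → ℝ → E} (h : Lip D g) (s : ℝ) : Continuous (g s) := by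
  have : LipschitzWith (Real.toNNReal D) (g s) := by
    refine LipschitzWith.of_dist_le_mul fun t t' => ?_
    have := h s t s t'
    rw [sub_self, abs_zero, zero_add] at this
    rw [dist_eq_norm, Real.dist_eq]
    exact this.trans (mul_le_mul_of_nonneg_right (Real.le_coe_toNNReal D) (abs_nonneg _))
  exact this.continuous

/-- Integral over the left edge of the cell `(I, J)` of the grid of mesh `ρ`. -/
noncomputable def ed (g : ℝ → ℝ → E) (ρ : ℝ) (I J : ℕ) : E :=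
  ∫ t in ((J : ℝ) * ρ)..(((J + 1 : ℕ) : ℝ) * ρ), g (I * ρ) t

/-- Averaged slope in the first variable over the cell `(I, J)`. -/
noncomputable def sl (g : ℝ → ℝ → E) (ρ : ℝ) (I J : ℕ) : E :=
  (ρ ^ 2)⁻¹ • (ed g ρ (I + 1) J - ed g ρ I J)

omit [CompleteSpace E] in
theorem ed_sub_le {D M ρ : ℝ} {g g' : ℝ → ℝ → E} (h : Lip D g) (h' : Lip D g') (hρ : 0 ≤ ρ)
    (I I' J : ℕ) (hM : ∀ t, ‖g (I * ρ) t - g' (I' * ρ) t‖ ≤ M) :
    ‖ed g ρ I J - ed g' ρ I' J‖ ≤ M * ρ := by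
  unfold ed
  rw [← intervalIntegral.integral_sub ((h.cont _).intervalIntegrable _ _)
    ((h'.cont _).intervalIntegrable _ _)]
  refine (intervalIntegral.norm_integral_le_of_norm_le_const fun t _ => hM t).trans_eq ?_
  congr 1
  push_cast
  rw [show ((J : ℝ) + 1) * ρ - J * ρ = ρ by ring, abs_of_nonneg hρ]

theorem ed_corner {D ρ : ℝ} {g : ℝ → ℝ → E} (h : Lip D g) (hD : 0 ≤ D) (hρ : 0 ≤ ρ) (I J : ℕ) :
    ‖ed g ρ I J - ρ • g (I * ρ) (J * ρ)‖ ≤ D * ρ * ρ := by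
  have e : ((J + 1 : ℕ) : ℝ) * ρ - J * ρ = ρ := by push_cast; ring
  have : ρ • g (I * ρ) (J * ρ) =
      ∫ _ in ((J : ℝ) * ρ)..(((J + 1 : ℕ) : ℝ) * ρ), g (I * ρ) (J * ρ) := by
    rw [intervalIntegral.integral_const, e]
  rw [this]
  unfold ed
  rw [← intervalIntegral.integral_sub ((h.cont _).intervalIntegrable _ _)
    (continuous_const.intervalIntegrable _ _)]
  refine (intervalIntegral.norm_integral_le_of_norm_le_const (C := D * ρ) fun t ht => ?_).trans_eq ?_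
  · refine (h _ _ _ _).trans (mul_le_mul_of_nonneg_left ?_ hD)
    rw [Set.uIoc_of_le (by linarith)] at ht
    rw [sub_self, abs_zero, zero_add, abs_le]
    constructor <;> linarith [ht.1, ht.2]
  · rw [e, abs_of_nonneg hρ]

omit [CompleteSpace E] in
theorem sl_norm_le {D ρ : ℝ} {g : ℝ → ℝ → E} (h : Lip D g) (hρ : 0 < ρ) (I J : ℕ) :
    ‖sl g ρ I J‖ ≤ D := by
  have := ed_sub_le (M := D * ρ) h h hρ.le (I + 1) I J fun t => by
    refine (h _ _ _ _).trans_eq ?_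
    push_cast
    rw [show ((I : ℝ) + 1) * ρ - I * ρ = ρ by ring, abs_of_nonneg hρ.le]
    simp
  unfold sl
  rw [norm_smul, Real.norm_eq_abs, abs_of_nonneg (by positivity)]
  calc _ ≤ (ρ ^ 2)⁻¹ * (D * ρ * ρ) := by gcongr
    _ = D := by field_simp

omit [CompleteSpace E] in
theorem ed_subdiv {D : ℝ} {g : ℝ → ℝ → E} (h : Lip D g) (ρ : ℝ) (n I J : ℕ) :
    ed g (n * ρ) I J = ∑ j ∈ range n, ed g ρ (I * n) (J * n + j) := by
  unfold ed
  have := intervalIntegral.sum_integral_adjacent_intervals (f := g ((I * n : ℕ) * ρ))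
    (μ := MeasureTheory.volume) (a := fun k => ((J * n + k : ℕ) : ℝ) * ρ) (n := n)
    fun k _ => (h.cont _).intervalIntegrable _ _
  simp only [← add_assoc] at this
  rw [this]
  congr 1
  · funext t; congr 1; push_cast; ring
  · push_cast; ring
  · push_cast; ring

omit [CompleteSpace E] in
theorem sl_tele (g : ℝ → ℝ → E) (ρ : ℝ) (P m J : ℕ) :
    ∑ i ∈ range m, sl g ρ (P + i) J = (ρ ^ 2)⁻¹ • (ed g ρ (P + m) J - ed g ρ P J) := by
  unfold sl
  rw [← smul_sum]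
  congr 1
  exact sum_range_sub (fun i => ed g ρ (P + i) J) m

omit [CompleteSpace E] in
theorem sl_subdiv {D ρ : ℝ} {g : ℝ → ℝ → E} (h : Lip D g) (hρ : 0 < ρ) {n : ℕ} (hn : 0 < n)
    (I J : ℕ) :
    ∑ j ∈ range n, ∑ i ∈ range n, sl g ρ (I * n + i) (J * n + j) =
      ((n : ℝ) ^ 2) • sl g (n * ρ) I J := by
  simp only [sl_tele]
  rw [← smul_sum, sum_sub_distrib, sl, ed_subdiv h, ed_subdiv h, smul_smul, add_mul, one_mul]
  congr 1
  have : (n : ℝ) ≠ 0 := by positivity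
  field_simp

omit [CompleteSpace E] in
theorem sl_tele_diff {D M ρ : ℝ} {g g' : ℝ → ℝ → E} (h : Lip D g) (h' : Lip D g') (hρ : 0 < ρ)
    (hM : ∀ s t, ‖g' s t - g s t‖ ≤ M * ρ) (P m J : ℕ) :
    ‖∑ i ∈ range m, (sl g' ρ (P + i) J - sl g ρ (P + i) J)‖ ≤ 2 * M := by
  rw [sum_sub_distrib, sl_tele, sl_tele, ← smul_sub, norm_smul, Real.norm_eq_abs,
    abs_of_nonneg (by positivity)]
  have h1 := ed_sub_le h' h hρ.le (P + m) (P + m) J fun t => hM _ t
  have h2 := ed_sub_le h' h hρ.le P P J fun t => hM _ t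
  have h3 : ‖ed g' ρ (P + m) J - ed g' ρ P J - (ed g ρ (P + m) J - ed g ρ P J)‖ ≤
      2 * M * ρ ^ 2 := by
    rw [sub_sub_sub_comm]
    refine (norm_sub_le _ _).trans ?_
    nlinarith
  calc _ ≤ (ρ ^ 2)⁻¹ * (2 * M * ρ ^ 2) := by gcongr
    _ = 2 * M := by field_simp

omit [CompleteSpace E] in
/-- Variation of the difference of edge integrals along a row. -/
theorem ed_diff_var (g g' : ℝ → ℝ → E) {ρ : ℝ} (hρ : 0 < ρ) (P m J a : ℕ) (ha : a ≤ m) :
    ‖(ed g' ρ (P + a) J - ed g ρ (P + a) J) - (ed g' ρ P J - ed g ρ P J)‖ ≤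
      ρ ^ 2 * ∑ i ∈ range m, ‖sl g' ρ (P + i) J - sl g ρ (P + i) J‖ := by
  have h1 : (ed g' ρ (P + a) J - ed g ρ (P + a) J) - (ed g' ρ P J - ed g ρ P J) =
      (ρ ^ 2) • ∑ i ∈ range a, (sl g' ρ (P + i) J - sl g ρ (P + i) J) := by
    rw [sum_sub_distrib, sl_tele, sl_tele, ← smul_sub, smul_smul, mul_inv_cancel₀ (by positivity),
      one_smul, sub_sub_sub_comm]
  rw [h1, norm_smul, Real.norm_eq_abs, abs_of_nonneg (by positivity)]
  refine mul_le_mul_of_nonneg_left ((norm_sum_le _ _).trans ?_) (by positivity)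
  exact sum_le_sum_of_subset_of_nonneg (range_mono ha) fun _ _ _ => norm_nonneg _

omit [CompleteSpace E] in
/-- The energy inequality. -/
theorem energy {ι : Type*} (s : Finset ι) (x y : ι → E) (c : E) {M D ε h : ℝ}
    (hM : (s.card : ℝ) = M) (hx : ∑ k ∈ s, x k = M • c) (hy : ‖∑ k ∈ s, (y k - x k)‖ ≤ M * ε)
    (hc : ‖c‖ ≤ D) (hh : 0 ≤ h) (hvar : M * h ≤ ∑ k ∈ s, ‖y k - x k‖) :
    M * (‖c‖ ^ 2 - D * ε + h ^ 2 / 4) ≤ ∑ k ∈ s, (‖x k‖ ^ 2 + ‖y k‖ ^ 2) / 2 := by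
  have key : ∀ k, 2 * inner ℝ c (x k) + inner ℝ c (y k - x k) - ‖c‖ ^ 2 +
      (2 * h * ‖y k - x k‖ - h ^ 2) / 4 ≤ (‖x k‖ ^ 2 + ‖y k‖ ^ 2) / 2 := by
    intro k
    have h1 : 0 ≤ ‖(1 / 2 : ℝ) • (x k + y k) - c‖ ^ 2 := by positivity
    have h2 := sq_nonneg (‖y k - x k‖ - h)
    rw [norm_sub_sq_real, norm_smul, mul_pow, norm_add_sq_real, inner_smul_left, inner_add_left,
      real_inner_comm c, real_inner_comm c] at h1
    have h3 := norm_sub_sq_real (y k) (x k)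
    rw [real_inner_comm] at h3
    rw [inner_sub_right]
    norm_num at h1
    nlinarith
  refine le_trans ?_ (sum_le_sum fun k _ => key k)
  simp only [sum_add_distrib, sum_sub_distrib, ← sum_div, ← mul_sum, ← inner_sum, sum_const,
    nsmul_eq_mul, hM]
  rw [← sum_sub_distrib, hx, inner_smul_right, real_inner_self_eq_norm_sq]
  have h4 := abs_real_inner_le_norm c (∑ k ∈ s, (y k - x k))
  have h5 : ‖c‖ * ‖∑ k ∈ s, (y k - x k)‖ ≤ D * (M * ε) :=
    mul_le_mul hc hy (norm_nonneg _) ((norm_nonneg _).trans hc)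
  have h6 := neg_abs_le (inner ℝ c (∑ k ∈ s, (y k - x k)))
  have h7 := mul_le_mul_of_nonneg_left hvar hh
  nlinarith

/-- The two-counter game cannot go on for ever. -/
theorem game {ι : Type*} [Nonempty ι] (u v : ι → ℝ) {Δ g : ℝ} (hu0 : ∀ x, 0 ≤ u x)
    (hu : ∀ x, u x ≤ Δ) (hv : ∀ x, v x ≤ Δ) (hg : 0 < g)
    (step : ∀ c : ℝ, 0 < c → ∃ γ : ℝ, 0 < γ ∧ ∀ x, ∀ μ : ℝ, 0 ≤ μ → ∃ x',
      u x + μ * v x ≤ u x' + μ * v x' ∧ ((∃ y, v x' + γ ≤ v y) ∨
        ∀ μ' : ℝ, 0 ≤ μ' → ∃ y, u x' + μ' * v x' + g - μ' * c ≤ u y + μ' * v y)) : False := by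
  have hbv : BddAbove (Set.range v) := ⟨Δ, by rintro _ ⟨x, rfl⟩; exact hv x⟩
  set K := ⨆ x, v x with hK
  have hvK : ∀ x, v x ≤ K := fun x => le_ciSup hbv x
  let P : ℝ → ℝ := fun μ => ⨆ x, (u x - μ * (K - v x))
  have hbP : ∀ μ, 0 ≤ μ → BddAbove (Set.range fun x => u x - μ * (K - v x)) := fun μ hμ =>
    ⟨Δ, by
      rintro _ ⟨x, rfl⟩
      have := mul_nonneg hμ (sub_nonneg.2 (hvK x))
      have := hu x
      simp only
      linarith⟩
  have hP : ∀ μ, 0 < μ → -1 ≤ P μ := by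
    intro μ hμ
    obtain ⟨x, hx⟩ := exists_lt_of_lt_ciSup (f := v) (b := K - 1 / μ)
      (by rw [← hK]; have : 0 < 1 / μ := by positivity
          linarith)
    refine le_trans ?_ (le_ciSup (hbP μ hμ.le) x)
    have h1 : μ * (K - v x) ≤ μ * (1 / μ) := mul_le_mul_of_nonneg_left (by linarith) hμ.le
    rw [mul_one_div_cancel hμ.ne'] at h1
    linarith [hu0 x]
  have hb : BddBelow (P '' Set.Ioi 0) := ⟨-1, by rintro _ ⟨μ, hμ, rfl⟩; exact hP μ hμ⟩
  obtain ⟨_, ⟨μ', hμ', rfl⟩, hlt⟩ := exists_lt_of_csInf_lt (s := P '' Set.Ioi 0)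
    (b := sInf (P '' Set.Ioi 0) + g / 4) ⟨_, 1, by simp, rfl⟩ (by linarith)
  have hμ'0 : 0 < μ' := hμ'
  obtain ⟨γ, hγ, hstep⟩ := step (g / (4 * μ')) (by positivity)
  have hΔ : 0 ≤ Δ := (hu0 (Classical.arbitrary ι)).trans (hu _)
  set μ := μ' + (Δ + 1 + g) / γ with hμ
  have hμ1 : μ' ≤ μ := by
    have : 0 ≤ (Δ + 1 + g) / γ := by positivity
    linarith
  have hμ0 : 0 < μ := hμ'0.trans_le hμ1
  obtain ⟨x, hx⟩ := exists_lt_of_lt_ciSup (f := fun x => u x - μ * (K - v x)) (b := P μ - g / 4)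
    (by change _ < P μ; linarith)
  obtain ⟨x', h1, h2⟩ := hstep x μ hμ0.le
  have h3 : P μ - g / 4 < u x' - μ * (K - v x') := by linarith
  have h4 : sInf (P '' Set.Ioi 0) ≤ P μ := csInf_le hb ⟨μ, hμ0, rfl⟩
  rcases h2 with ⟨y, hy⟩ | h2
  · have h5 : μ * γ ≤ μ * (K - v x') := mul_le_mul_of_nonneg_left (by linarith [hvK y]) hμ0.le
    have h6 : μ * γ = μ' * γ + (Δ + 1 + g) := by rw [hμ]; field_simp
    have h7 := mul_pos hμ'0 hγ
    linarith [hP μ hμ0, hu x']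
  · obtain ⟨y, hy⟩ := h2 μ' hμ'0.le
    have h5 : u y - μ' * (K - v y) ≤ P μ' := le_ciSup (hbP μ' hμ'0.le) y
    have h6 : μ' * (g / (4 * μ')) = g / 4 := by field_simp
    have h7 : μ' * (K - v x') ≤ μ * (K - v x') :=
      mul_le_mul_of_nonneg_right hμ1 (sub_nonneg.2 (hvK x'))
    linarith

end Crest.Agent.R254
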