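import Crest.Agent.R254.Block

/-!
# R254: one step of the game on a square
-/

set_option autoImplicit false

namespace Crest.Agent.R254

open Finset

variable {E : Type*} [NormedAddCommGroup E] [InnerProductSpace ℝ E] [CompleteSpace E]

omit [CompleteSpace E] in
theorem sum_sl {D ρ : ℝ} {g : ℝ → ℝ → E} (h : Lip D g) (hρ : 0 < ρ) {n : ℕ} (hn : 0 < n)
    (I J : ℕ) :
    ∑ p ∈ range n ×ˢ range n, sl g ρ (I * n + p.1) (J * n + p.2) =
      ((n : ℝ) ^ 2) • sl g (n * ρ) I J := by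
  rw [sum_product_right]; exact sl_subdiv h hρ hn I J

omit [CompleteSpace E] in
theorem sum_sl_sw {D ρ : ℝ} {g : ℝ → ℝ → E} (h : Lip D g) (hρ : 0 < ρ) {n : ℕ} (hn : 0 < n)
    (I J : ℕ) :
    ∑ p ∈ range n ×ˢ range n, sl (sw g) ρ (J * n + p.2) (I * n + p.1) =
      ((n : ℝ) ^ 2) • sl (sw g) (n * ρ) J I := by
  rw [sum_product]; exact sl_subdiv h.sw hρ hn J I

theorem exists_of_avg {n : ℕ} (hn : 0 < n) (a b : ℕ × ℕ → ℝ) (c : ℝ)
    (h : (n : ℝ) ^ 2 * c ≤ ∑ p ∈ range n ×ˢ range n, (a p + b p) / 2) :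
    ∃ i < n, ∃ j < n, c ≤ a (i, j) ∨ c ≤ b (i, j) := by
  obtain ⟨p, hp, h⟩ := exists_le_of_sum_le (s := range n ×ˢ range n) (f := fun _ => c)
    (g := fun p => (a p + b p) / 2) ⟨(0, 0), by simpa using hn⟩ (by simpa [sq] using h)
  rw [mem_product, mem_range, mem_range] at hp
  refine ⟨p.1, hp.1, p.2, hp.2, ?_⟩
  by_contra hc
  push Not at hc
  simp only [Prod.mk.eta] at hc
  linarith [hc.1, hc.2]

omit [CompleteSpace E] in
theorem descend {D ρ : ℝ} {g : ℝ → ℝ → E} (h : Lip D g) (hρ : 0 < ρ) {n : ℕ} (hn : 0 < n)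
    (I J : ℕ) {μ : ℝ} (hμ : 0 ≤ μ) :
    ∃ i < n, ∃ j < n, ‖sl g (n * ρ) I J‖ ^ 2 + μ * ‖sl (sw g) (n * ρ) J I‖ ^ 2 ≤
      ‖sl g ρ (I * n + i) (J * n + j)‖ ^ 2 + μ * ‖sl (sw g) ρ (J * n + j) (I * n + i)‖ ^ 2 := by
  have hn' : (0 : ℝ) < n * ρ := by positivity
  have hcard : (((range n ×ˢ range n).card : ℕ) : ℝ) = (n : ℝ) ^ 2 := by simp [sq]
  have h1 := energy (ε := 0) (h := 0) (range n ×ˢ range n) _
    (fun p => sl g ρ (I * n + p.1) (J * n + p.2)) _ hcard (sum_sl h hρ hn I J) (by simp)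
    (sl_norm_le h hn' I J) le_rfl (by simp)
  have h2 := energy (ε := 0) (h := 0) (range n ×ˢ range n) _
    (fun p => sl (sw g) ρ (J * n + p.2) (I * n + p.1)) _ hcard (sum_sl_sw h hρ hn I J) (by simp)
    (sl_norm_le h.sw hn' J I) le_rfl (by simp)
  obtain ⟨i, hi, j, hj, hij⟩ := exists_of_avg hn
    (fun p => ‖sl g ρ (I * n + p.1) (J * n + p.2)‖ ^ 2 +
      μ * ‖sl (sw g) ρ (J * n + p.2) (I * n + p.1)‖ ^ 2)
    (fun p => ‖sl g ρ (I * n + p.1) (J * n + p.2)‖ ^ 2 +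
      μ * ‖sl (sw g) ρ (J * n + p.2) (I * n + p.1)‖ ^ 2)
    (‖sl g (n * ρ) I J‖ ^ 2 + μ * ‖sl (sw g) (n * ρ) J I‖ ^ 2) (by
      have h3 := add_le_add h1 (mul_le_mul_of_nonneg_left h2 hμ)
      rw [mul_sum, ← sum_add_distrib] at h3
      refine le_trans (le_of_eq (by ring)) (h3.trans_eq (sum_congr rfl fun p _ => by ring)))
  exact ⟨i, hi, j, hj, hij.elim id id⟩

theorem step_grid {D ρ : ℝ} {N W T n : ℕ} {g : ℝ → ℝ → E} {ga : ℕ → ℝ → ℝ → E} (hD : 0 < D)
    (hρ : 0 < ρ) (hN : 32 * D ^ 2 ≤ N) (hW : 0 < W) (hT : 0 < T) (hn : n = T * W * (N * N))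
    (hT' : 8 * D ^ 2 / (T * W * N) ≤ (1 / (8 * D * N ^ 3 * W)) ^ 2 / 8)
    (hpig : Pig E D N) (hg : Lip D g) (hga : ∀ a, Lip D (ga a))
    (hM : ∀ a s t, ‖ga a s t - g s t‖ ≤ 4 * D * N * ρ) (I J : ℕ)
    (hsep : ∀ i < n, ∀ j < n, (J * n + j) / (W * N) % N ≠ (I * n + i) / N % N →
      N * ρ ≤ D * ‖ga ((J * n + j) / (W * N) % N) ((I * n + i : ℕ) * ρ) ((J * n + j : ℕ) * ρ) -
        ga ((I * n + i) / N % N) ((I * n + i : ℕ) * ρ) ((J * n + j : ℕ) * ρ)‖) :
    (∃ i < n, ∃ j < n,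
      ‖sl (sw g) (n * ρ) J I‖ ^ 2 + (1 / (8 * D * N ^ 3 * W)) ^ 2 / 8 ≤
        ‖sl (sw g) ρ (J * n + j) (I * n + i)‖ ^ 2 ∨
      ‖sl (sw g) (n * ρ) J I‖ ^ 2 + (1 / (8 * D * N ^ 3 * W)) ^ 2 / 8 ≤
        ‖sl (sw (ga ((I * n + i) / N % N))) ρ (J * n + j) (I * n + i)‖ ^ 2) ∨
    ∀ μ : ℝ, 0 ≤ μ → ∃ i < n, ∃ j < n,
      ‖sl g (n * ρ) I J‖ ^ 2 + μ * ‖sl (sw g) (n * ρ) J I‖ ^ 2 + (1 / (8 * D * N ^ 2)) ^ 2 / 8 -
          μ * (8 * D ^ 2 / W) ≤
        ‖sl g ρ (I * n + i) (J * n + j)‖ ^ 2 + μ * ‖sl (sw g) ρ (J * n + j) (I * n + i)‖ ^ 2 ∨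
      ‖sl g (n * ρ) I J‖ ^ 2 + μ * ‖sl (sw g) (n * ρ) J I‖ ^ 2 + (1 / (8 * D * N ^ 2)) ^ 2 / 8 -
          μ * (8 * D ^ 2 / W) ≤
        ‖sl (ga ((J * n + j) / (W * N) % N)) ρ (I * n + i) (J * n + j)‖ ^ 2 +
          μ * ‖sl (sw (ga ((J * n + j) / (W * N) % N))) ρ (J * n + j) (I * n + i)‖ ^ 2 := by
  have hN0 : (0 : ℝ) < N := lt_of_lt_of_le (by positivity) hN
  have hN0' : 0 < N := by exact_mod_cast hN0
  have hN1 : (1 : ℝ) ≤ N := by exact_mod_cast hN0'
  have hW0 : (0 : ℝ) < W := by exact_mod_cast hW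
  have hW1 : (1 : ℝ) ≤ W := by exact_mod_cast hW
  have hT0 : (0 : ℝ) < T := by exact_mod_cast hT
  have hn0 : 0 < n := by rw [hn]; positivity
  have hnR : (n : ℝ) = T * W * (N * N) := by rw [hn]; push_cast; ring
  have hn' : (0 : ℝ) < n * ρ := by positivity
  have hcard : (((range n ×ˢ range n).card : ℕ) : ℝ) = (n : ℝ) ^ 2 := by simp [sq]
  let dH : ℕ → ℕ → ℝ := fun I' J' => ‖sl (ga (J' / (W * N) % N)) ρ I' J' - sl g ρ I' J'‖
  let dV : ℕ → ℕ → ℝ := fun I' J' => ‖sl (sw (ga (I' / N % N))) ρ J' I' - sl (sw g) ρ J' I'‖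
  have hn2 : n = T * (N * (W * N)) := by rw [hn]; ring
  have hn3 : n = T * N * (W * N) := by rw [hn]; ring
  have e1 : ∀ a i, I * n + (a * (N * N) + i) = (I * (T * W) + a) * (N * N) + i := by
    intro a i; rw [hn]; ring
  have e2 : ∀ a j, J * n + (a * (N * (W * N)) + j) = (J * T + a) * (N * (W * N)) + j := by
    intro a j; rw [hn]; ring
  have hdec : ∀ d : ℕ → ℕ → ℝ, ∑ p ∈ range n ×ˢ range n, d (I * n + p.1) (J * n + p.2) =
      ∑ a ∈ range (T * W), ∑ a' ∈ range T, ∑ i ∈ range (N * N), ∑ j ∈ range (N * (W * N)),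
        d ((I * (T * W) + a) * (N * N) + i) ((J * T + a') * (N * (W * N)) + j) := by
    intro d
    rw [sum_product, congrArg range hn, sum_range_mul']
    refine sum_congr rfl fun a _ => ?_
    rw [sum_comm (s := range T)]
    refine sum_congr rfl fun i _ => ?_
    rw [← congrArg range hn, congrArg range hn2, sum_range_mul']
    simp only [e1, e2]
  have htot : (T * W) * (T * ((W * N) * (N / (4 * D)))) ≤
      ∑ p ∈ range n ×ˢ range n, dH (I * n + p.1) (J * n + p.2) +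
        (W * N) * ∑ p ∈ range n ×ˢ range n, dV (I * n + p.1) (J * n + p.2) := by
    rw [hdec dH, hdec dV, mul_sum, ← sum_add_distrib]
    refine le_trans (le_of_eq ?_) (sum_le_sum (f := fun _ => T * ((W * N) * (N / (4 * D))))
      fun a ha => ?_)
    · simp
    rw [mul_sum, ← sum_add_distrib]
    refine le_trans (le_of_eq ?_) (sum_le_sum (f := fun _ => (W * N) * (N / (4 * D)))
      fun a' ha' => ?_)
    · simp
    rw [sum_comm]
    refine block hD hρ hN hpig hg hga hM _ _ fun i hi j hj => ?_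
    rw [mem_range] at ha ha'
    rw [← e1, ← e2]
    refine hsep _ ?_ _ ?_
    · calc a * (N * N) + i < a * (N * N) + N * N := by omega
        _ = (a + 1) * (N * N) := by ring
        _ ≤ T * W * (N * N) := Nat.mul_le_mul_right _ ha
        _ = n := hn.symm
    · calc a' * (N * (W * N)) + j < a' * (N * (W * N)) + N * (W * N) := by omega
        _ = (a' + 1) * (N * (W * N)) := by ring
        _ ≤ T * (N * (W * N)) := Nat.mul_le_mul_right _ ha'
        _ = n := hn2.symm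
  have hε : (n : ℝ) * (2 * (4 * D * N)) = (n : ℝ) ^ 2 * (8 * D / (T * W * N)) := by
    rw [hnR]; field_simp; ring
  by_cases hV : (n : ℝ) ^ 2 * (1 / (8 * D * N ^ 3 * W)) ≤
      ∑ p ∈ range n ×ˢ range n, dV (I * n + p.1) (J * n + p.2)
  · left
    have h1 := energy (ε := 8 * D / (T * W * N)) (h := 1 / (8 * D * N ^ 3 * W))
      (range n ×ˢ range n)
      (fun p => sl (sw g) ρ (J * n + p.2) (I * n + p.1))
      (fun p => sl (sw (ga ((I * n + p.1) / N % N))) ρ (J * n + p.2) (I * n + p.1)) _ hcard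
      (sum_sl_sw hg hρ hn0 I J) (by
        rw [sum_product, ← hε]
        refine (norm_sum_le _ _).trans ?_
        refine (sum_le_sum (g := fun _ => 2 * (4 * D * N)) fun i _ => ?_).trans_eq (by simp)
        exact sl_tele_diff hg.sw (hga ((I * n + i) / N % N)).sw hρ
          (fun t s => hM ((I * n + i) / N % N) s t) (J * n) n (I * n + i))
      (sl_norm_le hg.sw hn' J I) (by positivity) hV
    refine exists_of_avg hn0 (fun p => ‖sl (sw g) ρ (J * n + p.2) (I * n + p.1)‖ ^ 2)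
      (fun p => ‖sl (sw (ga ((I * n + p.1) / N % N))) ρ (J * n + p.2) (I * n + p.1)‖ ^ 2) _
      (le_trans (mul_le_mul_of_nonneg_left ?_ (by positivity)) h1)
    have : D * (8 * D / (T * W * N)) = 8 * D ^ 2 / (T * W * N) := by ring
    linarith
  · right
    intro μ hμ
    have hH : (n : ℝ) ^ 2 * (1 / (8 * D * N ^ 2)) ≤
        ∑ p ∈ range n ×ˢ range n, dH (I * n + p.1) (J * n + p.2) := by
      have h1 := mul_le_mul_of_nonneg_left (not_le.1 hV).le (show (0 : ℝ) ≤ W * N by positivity)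
      have h2 : (W * N : ℝ) * ((n : ℝ) ^ 2 * (1 / (8 * D * N ^ 3 * W))) =
          (n : ℝ) ^ 2 * (1 / (8 * D * N ^ 2)) := by field_simp
      have h3 : (T * W : ℝ) * (T * ((W * N) * (N / (4 * D)))) =
          2 * ((n : ℝ) ^ 2 * (1 / (8 * D * N ^ 2))) := by rw [hnR]; field_simp; ring
      linarith
    have h1 := energy (ε := 8 * D / (T * W * N)) (h := 1 / (8 * D * N ^ 2))
      (range n ×ˢ range n)
      (fun p => sl g ρ (I * n + p.1) (J * n + p.2))
      (fun p => sl (ga ((J * n + p.2) / (W * N) % N)) ρ (I * n + p.1) (J * n + p.2)) _ hcard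
      (sum_sl hg hρ hn0 I J) (by
        rw [sum_product_right, ← hε]
        refine (norm_sum_le _ _).trans ?_
        refine (sum_le_sum (g := fun _ => 2 * (4 * D * N)) fun j _ => ?_).trans_eq (by simp)
        exact sl_tele_diff hg (hga ((J * n + j) / (W * N) % N)) hρ
          (fun s t => hM ((J * n + j) / (W * N) % N) s t) (I * n) n (J * n + j))
      (sl_norm_le hg hn' I J) (by positivity) hH
    have h2 := energy (ε := 8 * D / W) (h := 0) (range n ×ˢ range n)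
      (fun p => sl (sw g) ρ (J * n + p.2) (I * n + p.1))
      (fun p => sl (sw (ga ((J * n + p.2) / (W * N) % N))) ρ (J * n + p.2) (I * n + p.1)) _ hcard
      (sum_sl_sw hg hρ hn0 I J) (by
        rw [sum_product]
        refine (norm_sum_le _ _).trans ?_
        refine (sum_le_sum (g := fun _ => (T * N : ℝ) * (2 * (4 * D * N))) fun i _ => ?_).trans_eq ?_
        · rw [congrArg range hn3, sum_range_mul']
          refine (norm_sum_le _ _).trans ?_
          refine (sum_le_sum (g := fun _ => 2 * (4 * D * N)) fun y _ => ?_).trans_eq (by simp)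
          have := sl_tele_diff hg.sw (hga ((J * (T * N) + y) % N)).sw hρ
            (fun t s => hM ((J * (T * N) + y) % N) s t) (J * n + y * (W * N)) (W * N) (I * n + i)
          refine le_trans (le_of_eq ?_) this
          congr 1
          refine sum_congr rfl fun j hj => ?_
          rw [mem_range] at hj
          have e : (J * n + (y * (W * N) + j)) / (W * N) = J * (T * N) + y := by
            rw [show J * n + (y * (W * N) + j) = j + (J * (T * N) + y) * (W * N) by rw [hn]; ring,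
              Nat.add_mul_div_right _ _ (by omega), Nat.div_eq_of_lt hj, zero_add]
          simp only [e, add_assoc]
        · simp only [sum_const, card_range, nsmul_eq_mul]
          rw [hnR]; field_simp; ring)
      (sl_norm_le hg.sw hn' J I) le_rfl (by
        rw [mul_zero]; exact sum_nonneg fun _ _ => norm_nonneg _)
    refine exists_of_avg hn0
      (fun p => ‖sl g ρ (I * n + p.1) (J * n + p.2)‖ ^ 2 +
        μ * ‖sl (sw g) ρ (J * n + p.2) (I * n + p.1)‖ ^ 2)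
      (fun p => ‖sl (ga ((J * n + p.2) / (W * N) % N)) ρ (I * n + p.1) (J * n + p.2)‖ ^ 2 +
        μ * ‖sl (sw (ga ((J * n + p.2) / (W * N) % N))) ρ (J * n + p.2) (I * n + p.1)‖ ^ 2) _ ?_
    have h3 := add_le_add h1 (mul_le_mul_of_nonneg_left h2 hμ)
    rw [mul_sum, ← sum_add_distrib] at h3
    refine le_trans ?_ (h3.trans_eq (sum_congr rfl fun p _ => by ring))
    have h4 : (1 / (8 * D * N ^ 3 * W) : ℝ) ≤ 1 / (8 * D * N ^ 2) := by
      refine one_div_le_one_div_of_le (by positivity) ?_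
      have : (1 : ℝ) ≤ N * W := one_le_mul_of_one_le_of_one_le hN1 hW1
      calc 8 * D * N ^ 2 = 8 * D * N ^ 2 * 1 := by ring
        _ ≤ 8 * D * N ^ 2 * (N * W) := by gcongr
        _ = _ := by ring
    have h5 : (1 / (8 * D * N ^ 3 * W) : ℝ) ^ 2 ≤ (1 / (8 * D * N ^ 2)) ^ 2 := by gcongr
    have h6 : D * (8 * D / (T * W * N)) = 8 * D ^ 2 / (T * W * N) := by ring
    have h7 : D * (8 * D / W) = 8 * D ^ 2 / W := by ring
    rw [h6, h7, mul_left_comm μ, ← mul_add]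
    refine mul_le_mul_of_nonneg_left ?_ (by positivity)
    linarith

end Crest.Agent.R254
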